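import Vale.Agent.P310.Flat

/-!
# P310: blocks of flat machines

`t.Has o b`: the block `b` (a list of rows) sits at offset `o` in the table `t`.
-/

namespace Vale.Agent.P310

/-- the block `b` sits at offset `o` of the table `t` -/
def FTable.Has (t : FTable) (o : ℕ) (b : FTable) : Prop :=
  ∀ i, i < b.length → t.getD (o + i) (0, []) = b.getD i (0, [])

theorem FTable.has_of_append (a b c : FTable) {o : ℕ} (ho : a.length = o) :
    FTable.Has (a ++ (b ++ c)) o b := by
  intro i hi
  subst ho
  simp only [List.getD_eq_getElem?_getD]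
  rw [List.getElem?_append_right (by omega), Nat.add_sub_cancel_left,
    List.getElem?_append_left hi]

theorem FTable.Has.left {t a b : FTable} {o : ℕ} (h : t.Has o (a ++ b)) : t.Has o a := by
  intro i hi
  rw [h i (by simp; omega)]
  simp only [List.getD_eq_getElem?_getD]
  rw [List.getElem?_append_left hi]

theorem FTable.Has.right {t a b : FTable} {o : ℕ} (h : t.Has o (a ++ b)) :
    t.Has (o + a.length) b := by
  intro i hi
  have := h (a.length + i) (by simp; omega)
  rw [Nat.add_assoc, this]
  simp only [List.getD_eq_getElem?_getD]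
  rw [List.getElem?_append_right (by omega), Nat.add_sub_cancel_left]

theorem FTable.Has.right' {t a b : FTable} {o n : ℕ} (h : t.Has o (a ++ b)) (hn : a.length = n) :
    t.Has (o + n) b := hn ▸ h.right

theorem FTable.Has.head {t b : FTable} {r : ℕ × List FAct} {o : ℕ} (h : t.Has o (r :: b)) :
    t.getD o (0, []) = r := by
  have := h 0 (by simp)
  simpa using this

theorem FTable.Has.tail {t b : FTable} {r : ℕ × List FAct} {o : ℕ} (h : t.Has o (r :: b)) :
    t.Has (o + 1) b := by
  have := FTable.Has.right (a := [r]) (b := b) h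
  simpa using this

/-- one step in a state with a known row -/
theorem FTable.step_row (t : FTable) {s : ℕ} {r : ℕ × List FAct} (h : t.getD s (0, []) = r)
    (S : ℕ → List ℕ) :
    t.step (s, S) = ((r.2.getD (rcode (S r.1)) (0, 0, 0, s)).2.2.2,
      (r.2.getD (rcode (S r.1)) (0, 0, 0, s)).upd S) := by
  simp only [FTable.step, FTable.act, FTable.rd, h]

/-- composition of runs -/
theorem FTable.steps_trans {t : FTable} {c d e : FCfg} {m n : ℕ} (h₁ : t.step^[m] c = d)
    (h₂ : t.step^[n] d = e) : t.step^[m + n] c = e := by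
  rw [Nat.add_comm, Function.iterate_add_apply, h₁, h₂]

@[simp] theorem FAct.upd_nop (j c s : ℕ) (S : ℕ → List ℕ) : FAct.upd (0, j, c, s) S = S := by
  simp [FAct.upd]

@[simp] theorem FAct.upd_push (j c s : ℕ) (S : ℕ → List ℕ) :
    FAct.upd (1, j, c, s) S = Function.update S j (c :: S j) := by
  simp [FAct.upd]

@[simp] theorem FAct.upd_pop (j c s : ℕ) (S : ℕ → List ℕ) :
    FAct.upd (2, j, c, s) S = Function.update S j (S j).tail := by
  simp [FAct.upd]

end Vale.Agent.P310
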