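import Vale.Agent.P310.H781.ProgF
import Vale.Agent.Lib.PolyTime.Machine
import Vale.Agent.P310.WLDefs

/-!
# P310: composition (package W7c)

The machine `D`: from the word `u` it computes `R ⟨u, kap⟩` (clean program), writes it on the input
stack of the block simulating the machine `A`, runs this block and goes to state `1` if and only if
the answer is `yes`.
-/

namespace Vale.Agent.P310

open Vale.Agent.Lib.PolyTime Function Turing

/-! ### The preprocessing program -/

/-- push the word `l` on stack `i` -/
def pushWord (i : ℕ) : Word → Prog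
  | [] => .skip
  | b :: l => .seq (pushWord i l) (.push i b)

theorem runs_pushWord (i : ℕ) (l : Word) (s : ℕ → Word) :
    Runs ∅ (pushWord i l) s (l.length + 1) (update s i (l ++ s i)) := by
  induction l with
  | nil => simpa [pushWord] using Runs.skip (A := ∅) (s := s)
  | cons b l ih =>
    refine (ih.seq (Runs.push i b)).congr ?_
    simp

/-- from `u` on stack `0` compute `pr u kap` on stack `0`, using the empty stack `w` -/
def prePair (kap : Word) (w : ℕ) : Prog :=
  .seq (.mv 0 w) (.seq (pushWord 0 kap) (.seq (.push 0 false) (.mvd w 0)))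

theorem runs_prePair (kap : Word) {w : ℕ} (hw : w ≠ 0) (s : ℕ → Word) (hs : s w = []) :
    Runs ∅ (prePair kap w) s (9 * (s 0).length + kap.length + 4) (update s 0 (pr (s 0) kap)) := by
  have h1 := Runs.mv (A := ∅) (s := s) (i := 0) (j := w) (Ne.symm hw)
  set s1 := update (update s 0 []) w ((s 0).reverse ++ s w) with hs1
  have h2 := runs_pushWord 0 kap s1
  set s2 := update s1 0 (kap ++ s1 0) with hs2
  have h3 := Runs.push (A := ∅) (s := s2) 0 false
  set s3 := update s2 0 (false :: s2 0) with hs3
  have h4 := Runs.mvd (A := ∅) (s := s3) (k := w) (j := 0) hw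
  have e0 : s1 0 = [] := by simp [hs1, Ne.symm hw]
  have e3w : s3 w = (s 0).reverse := by simp [hs3, hs2, hs1, hw, hs]
  have e30 : s3 0 = false :: kap := by simp [hs3, hs2, e0]
  refine ((h1.seq (h2.seq (h3.seq h4))).congr ?_).mono ?_
  · funext m
    rcases eq_or_ne m 0 with rfl | hm0
    · simp [e3w, e30, pr_eq]
    · rcases eq_or_ne m w with rfl | hmw
      · simp [hw, hs]
      · simp [hs3, hs2, hs1, hm0, hmw]
  · rw [e3w]
    simp
    omega

/-! ### The interface to the simulation of machines -/

/-- The machine `A` is simulated by relocatable blocks on the stacks `≥ N` with constant slowdown: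
the input word (over the symbols `inp b`, with codes `cin b`) is on the stack `kin`, the other
stacks `≥ N` are empty; after the halting of `A` the block is left, and the top symbol of the stack
`kout` has the code `cyes` if and only if the top symbol of the output stack of `A` is `yes`. -/
def SimBlock (A : FinTM2) (inp : Bool → A.Γ A.k₀) (yes : A.Γ A.k₁) (N : ℕ) : Prop :=
  ∃ (blk : ℕ → ℕ → FTable) (len K : ℕ) (kin kout : ℕ) (cin : Bool → ℕ) (cyes : ℕ),
    (∀ o e, (blk o e).length = len) ∧ N ≤ kin ∧
    ∀ (t : FTable) (o e : ℕ), t.Has o (blk o e) →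
      ∀ (x : List Bool) (S : ℕ → List ℕ), (∀ i, N ≤ i → S i = if i = kin then x.map cin else []) →
      ∀ (s : ℕ) (c : A.Cfg), stepsFrom A (initList A (x.map inp)) s = some c → c.l = none →
        ∃ m ≤ K * (s + 1), ∃ S', t.step^[m] (o, S) = (e, S') ∧
          (rcode (S' kout) = cyes + 1 ↔ (c.stk A.k₁).head? = some yes)

/-- The relocatable blocks of package W7a give `SimBlock`. -/
theorem simBlock_of_blocks {A : FinTM2} {inp : Bool → A.Γ A.k₀} {yes : A.Γ A.k₁}
    (h : ∀ kn : A.K → ℕ, Injective kn →
      ∃ (blk : ℕ → ℕ → FTable) (len K0 : ℕ) (num : ∀ k, A.Γ k → ℕ),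
        (∀ o e, (blk o e).length = len) ∧ ∀ (t : FTable) (o e : ℕ), t.Has o (blk o e) →
        ∀ (u : List (A.Γ A.k₀)) (S : ℕ → List ℕ), S (kn A.k₀) = u.map (num A.k₀) →
        (∀ k, k ≠ A.k₀ → S (kn k) = []) → ∀ (s : ℕ) (cfg : A.Cfg),
        stepsFrom A (initList A u) s = some cfg → cfg.l = none →
        ∃ m ≤ K0 * (s + 1), ∃ S', t.step^[m] (o, S) = (e, S') ∧
          ((cfg.stk A.k₁).head? = some yes ↔ rcode (S' (kn A.k₁)) = num A.k₁ yes + 1)) (N : ℕ) :
    SimBlock A inp yes N := by
  classical
  have : Fintype A.K := A.kFin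
  let kn : A.K → ℕ := fun k => N + (Fintype.equivFin A.K k : ℕ)
  have hkn : Injective kn := by
    intro a b hab
    have : (Fintype.equivFin A.K a : ℕ) = Fintype.equivFin A.K b := Nat.add_left_cancel hab
    exact (Fintype.equivFin A.K).injective (Fin.ext this)
  obtain ⟨blk, len, K0, num, hlen, hsim⟩ := h kn hkn
  refine ⟨blk, len, K0, kn A.k₀, kn A.k₁, fun b => num A.k₀ (inp b), num A.k₁ yes, hlen,
    Nat.le_add_right _ _, fun t o e ht x S hS s c hs hl => ?_⟩
  obtain ⟨m, hm, S', h1, h2⟩ := hsim t o e ht (x.map inp) S (by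
    rw [hS _ (Nat.le_add_right _ _), if_pos rfl, List.map_map]
    rfl) (fun k hk => by
      rw [hS _ (Nat.le_add_right _ _), if_neg (fun e => hk (hkn e))]) s c hs hl
  exact ⟨m, hm, S', h1, h2.symm⟩

/-! ### Transfer of a stack -/

/-- the block which moves the word on the stack `a` (codes `0`, `1`) to the stack `j`, replacing
`0`, `1` by `c0`, `c1` -/
def transfer (a j c0 c1 o : ℕ) : FTable :=
  [(a, [(0, 0, 0, o + 3), (2, a, 0, o + 1), (2, a, 0, o + 2)]),
    (j, []), (j, [])].set 1 (a, List.replicate 3 (1, j, c0, o)) |>.set 2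
      (a, List.replicate 3 (1, j, c1, o))

theorem transfer_eq (a j c0 c1 o : ℕ) : transfer a j c0 c1 o =
    [(a, [(0, 0, 0, o + 3), (2, a, 0, o + 1), (2, a, 0, o + 2)]),
      (a, List.replicate 3 (1, j, c0, o)), (a, List.replicate 3 (1, j, c1, o))] := rfl

theorem transfer_sim {a j : ℕ} (haj : a ≠ j) (cin : Bool → ℕ) (t : FTable) (o : ℕ)
    (ht : t.Has o (transfer a j (cin false) (cin true) o)) :
    ∀ (w : Word) (S : ℕ → List ℕ), S a = w.map bcode →
      t.step^[2 * w.length + 1] (o, S) =
        (o + 3, update (update S a []) j ((w.map cin).reverse ++ S j)) := by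
  rw [transfer_eq] at ht
  have r0 := ht.head
  have r1 := ht.tail.head
  have r2 := ht.tail.tail.head
  intro w
  induction w with
  | nil =>
    intro S hS
    have e1 : update S a [] = S := by rw [List.map_nil] at hS; rw [← hS]; simp
    simp only [List.length_nil, Nat.mul_zero, Nat.zero_add, iterate_one]
    rw [t.step_row r0, hS]
    simp [rcode, e1]
  | cons b w ih =>
    intro S hS
    set S1 := update S a (w.map bcode) with hS1
    set S2 := update S1 j (cin b :: S1 j) with hS2
    have h1 : t.step^[2] (o, S) = (o, S2) := by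
      have e : (2 : ℕ) = 1 + 1 := rfl
      rw [e, iterate_add_apply, iterate_one, t.step_row r0, hS]
      have hlt : rcode (S1 a) < 3 := by rw [hS1, update_self]; exact rcode_map_bcode_lt _
      cases b with
      | false =>
        simp only [List.map_cons, bcode, rcode, Bool.false_eq_true, if_false, Nat.zero_add,
          List.getD_cons_succ, List.getD_cons_zero, FAct.upd_pop, hS, List.tail_cons]
        rw [← hS1, t.step_row r1]
        simp only [getD_replicate_three _ _ hlt, FAct.upd_push]
        rw [← hS2]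
      | true =>
        simp only [List.map_cons, bcode, rcode, if_true, List.getD_cons_succ,
          List.getD_cons_zero, FAct.upd_pop, hS, List.tail_cons]
        rw [← hS1, t.step_row (s := o + 2) r2]
        simp only [getD_replicate_three _ _ hlt, FAct.upd_push]
        rw [← hS2]
    have h2 := ih S2 (by rw [hS2, update_of_ne haj, hS1, update_self])
    have e : 2 * (b :: w).length + 1 = 2 + (2 * w.length + 1) := by
      rw [List.length_cons]; ring
    rw [e, FTable.steps_trans h1 h2]
    congr 1
    funext m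
    rcases eq_or_ne m j with rfl | hmj
    · simp [hS2, hS1, update_of_ne haj.symm]
    · rcases eq_or_ne m a with rfl | hma
      · simp [hmj]
      · simp [hS2, hS1, hmj, hma]

/-! ### The composed machine -/

theorem rcode_eq_succ_iff {l : List ℕ} {c : ℕ} : rcode l = c + 1 ↔ l.head? = some c := by
  cases l <;> simp [rcode]

/-- **W7.** Composition of a polynomial time reduction with a Turing machine. -/
theorem exists_composed {A : FinTM2} {inp : Bool → A.Γ A.k₀} {yes : A.Γ A.k₁}
    (hA : ∀ N, SimBlock A inp yes N) {R : Word → Word} {c : ℕ} (hc : 1 ≤ c)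
    (hR : ∃ (p : Prog) (w : ℕ), 2 ≤ w ∧ Clean ∅ p w R (pb c)) (kap : Word) :
    ∃ (t : FTable) (K : ℕ), ∀ (u : Word) (s : ℕ) (cfg : A.Cfg),
      stepsFrom A (initList A ((R (pr u kap)).map inp)) s = some cfg → cfg.l = none →
      ((∃ m, t.AccAt u m) ↔ (cfg.stk A.k₁).head? = some yes) ∧
      ((cfg.stk A.k₁).head? = some yes →
        ∃ m ≤ K * ((2 * u.length + kap.length + 3) ^ c + s + 1), t.AccAt u m) := by
  obtain ⟨p, w, hw, hcl⟩ := hR
  -- the program before the transfer
  set P : Prog := .seq (prePair kap w) (.seq p (.mv 1 w)) with hP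
  obtain ⟨N0, hN0⟩ := ToTM2.exists_bounded P
  set N := max N0 (w + 1) with hN
  have hPb : ToTM2.bounded N P := ToTM2.bounded_mono (le_max_left _ _) hN0
  have hwN : w < N := lt_of_lt_of_le (Nat.lt_succ_self w) (le_max_right _ _)
  obtain ⟨blk, len, K0, kin, kout, cin, cyes, hlen, hkin, hsim⟩ := hA N
  have hwk : w ≠ kin := by omega
  set o1 := 3 + psize P with ho1
  set o2 := o1 + 3 with ho2
  set o3 := o2 + len with ho3
  set t : FTable := (0, List.replicate 3 (0, 0, 0, 3)) :: (0, []) :: (0, []) ::
    (pcode P 3 o1 ++ (transfer w kin (cin false) (cin true) o1 ++ (blk o2 o3 ++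
      [(kout, List.replicate (cyes + 1) (0, 0, 0, o3) ++ [(0, 0, 0, 1)])]))) with ht
  have hH : t.Has 0 t := by intro i _; simp
  have hH0 : t.getD 0 (0, []) = (0, List.replicate 3 (0, 0, 0, 3)) := hH.head
  have hH1 : t.getD 1 (0, []) = (0, []) := hH.tail.head
  have hHr : t.Has 3 (pcode P 3 o1 ++ (transfer w kin (cin false) (cin true) o1 ++ (blk o2 o3 ++
      [(kout, List.replicate (cyes + 1) (0, 0, 0, o3) ++ [(0, 0, 0, 1)])]))) := hH.tail.tail.tail
  have hHP : t.Has 3 (pcode P 3 o1) := hHr.left
  have hHr1 := hHr.right' (length_pcode P _ _)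
  have hHT : t.Has o1 (transfer w kin (cin false) (cin true) o1) := hHr1.left
  have hHr2 := hHr1.right' (n := 3) rfl
  have hHB : t.Has o2 (blk o2 o3) := hHr2.left
  have hHL : t.getD o3 (0, []) =
      (kout, List.replicate (cyes + 1) (0, 0, 0, o3) ++ [(0, 0, 0, 1)]) :=
    (hHr2.right' (hlen o2 o3)).head
  have hone : ∀ (m : ℕ) (S : ℕ → List ℕ), t.step^[m] (1, S) = (1, S) := by
    intro m S
    refine iterate_fixed ?_ m
    rw [t.step_row hH1]
    simp
  refine ⟨t, 40 + kap.length + K0 + 40, fun u s cfg hs hl => ?_⟩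
  -- phase 1
  set s0 : ℕ → Word := fun i => if i = 0 then u else [] with hs0
  have e00 : s0 0 = u := by simp [hs0]
  have ei0 : ∀ i, i ≠ 0 → s0 i = [] := fun i hi => by simp [hs0, hi]
  have hstart : fstart u = (0, emb N s0 (fun _ => [])) := by
    unfold fstart emb
    congr 1
    funext i
    rcases eq_or_ne i 0 with rfl | hi
    · have : 0 < N := by omega
      simp [hs0, this, bcode]
    · simp [hs0, hi]
  have hr0 : t.step^[1] (fstart u) = (3, emb N s0 (fun _ => [])) := by
    rw [hstart, iterate_one, t.step_row hH0]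
    have hlt : rcode (emb N s0 (fun _ => []) 0) < 3 := by
      rw [emb_lt (by omega)]; exact rcode_map_bcode_lt _
    simp only [getD_replicate_three _ _ hlt, FAct.upd_nop]
  have g1 := runs_prePair kap (w := w) (by omega) s0 (ei0 w (by omega))
  rw [e00] at g1
  set s1 := update s0 0 (pr u kap) with hs1
  have e10 : s1 0 = pr u kap := by simp [hs1]
  have ei1 : ∀ i, i ≠ 0 → s1 i = [] := fun i hi => by simp [hs1, hi, ei0 i hi]
  obtain ⟨τ, hτ, hev⟩ := hcl s1 (fun i h1 _ => ei1 i (by omega))
  rw [e10] at hτ hev
  set x := R (pr u kap) with hx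
  set s2 := update s1 1 x with hs2
  have hlx : x.length ≤ pb c (pr u kap).length := by
    have h1 := hev.length_le 1
    rw [hs2, update_self, ei1 1 (by omega)] at h1
    simp only [List.length_nil, Nat.zero_add] at h1
    omega
  have g3 := Runs.mv (A := ∅) (s := s2) (i := 1) (j := w) (by omega)
  have e2w : s2 w = [] := by rw [hs2, update_of_ne (by omega)]; exact ei1 w (by omega)
  have e21 : s2 1 = x := by simp [hs2]
  rw [e2w, e21, List.append_nil] at g3
  set s3 := update (update s2 1 []) w x.reverse with hs3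
  obtain ⟨τP, hτP, hevP⟩ := g1.seq (Runs.seq ⟨τ, hτ, hev⟩ g3)
  have hrun1 := pcode_sim hevP (N := N) (by omega) hPb t (fun _ => []) 3 o1 hHP
  -- phase 2
  set S3 := emb N s3 (fun _ => []) with hS3
  have hS3w : S3 w = x.reverse.map bcode := by rw [hS3, emb_lt hwN, hs3, update_self]
  have hrun2 := transfer_sim hwk cin t o1 hHT x.reverse S3 hS3w
  have hS3k : S3 kin = [] := by rw [hS3, emb_ge hkin]
  rw [hS3k, List.append_nil, ← List.map_reverse, List.reverse_reverse, List.length_reverse] at hrun2
  set S4 := update (update S3 w []) kin (x.map cin) with hS4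
  -- phase 3
  obtain ⟨m3, hm3, S5, hrun3, hyes⟩ := hsim t o2 o3 hHB x S4 (by
    intro i hi
    rcases eq_or_ne i kin with rfl | hik
    · simp [hS4]
    · rw [hS4, update_of_ne hik, update_of_ne (by omega), if_neg hik, hS3, emb_ge hi]) s cfg hs hl
  -- total
  have hrunT : t.run u (1 + (τP + ((2 * x.length + 1) + m3))) = (o3, S5) := by
    unfold FTable.run
    exact FTable.steps_trans hr0 (FTable.steps_trans hrun1 (FTable.steps_trans hrun2 hrun3))
  set M := 1 + (τP + ((2 * x.length + 1) + m3)) with hM
  have hMle : M + 1 ≤ (40 + kap.length + K0 + 40) *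
      ((2 * u.length + kap.length + 3) ^ c + s + 1) := by
    have hpl : (pr u kap).length + 2 = 2 * u.length + kap.length + 3 := by
      rw [length_pr]
    have hq : pb c (pr u kap).length = (2 * u.length + kap.length + 3) ^ c := by
      rw [pb, hpl]
    rw [hq] at hlx hτP
    set Q := (2 * u.length + kap.length + 3) ^ c with hQ
    have hQ1 : 2 * u.length + kap.length + 3 ≤ Q := by
      rw [hQ]
      exact Nat.le_self_pow (by omega) _
    have h5 : K0 * (s + 1) ≤ K0 * (Q + s + 1) := Nat.mul_le_mul_left _ (by omega)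
    have h6 : (40 + kap.length + K0 + 40) * (Q + s + 1) =
        40 * (Q + s + 1) + kap.length * (Q + s + 1) + K0 * (Q + s + 1) + 40 * (Q + s + 1) := by
      ring
    rw [h6]
    omega
  have ho31 : o3 ≠ 1 := by omega
  have hlast : ∀ g, (List.replicate (cyes + 1) ((0, 0, 0, o3) : FAct) ++ [(0, 0, 0, 1)]).getD g
      (0, 0, 0, o3) = if g = cyes + 1 then (0, 0, 0, 1) else (0, 0, 0, o3) := by
    intro g
    simp only [List.getD_eq_getElem?_getD]
    rcases lt_trichotomy g (cyes + 1) with hg | hg | hg
    · rw [List.getElem?_append_left (by simpa using hg), if_neg (by omega),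
        List.getElem?_replicate, if_pos hg]
      try rfl
    · subst hg
      rw [List.getElem?_append_right (by simp)]
      simp
    · rw [List.getElem?_append_right (by simp; omega), if_neg (by omega),
        List.getElem?_eq_none (by simp; omega)]
      try rfl
  have hfin : t.step (o3, S5) =
      (if rcode (S5 kout) = cyes + 1 then 1 else o3, S5) := by
    rw [t.step_row hHL]
    simp only [hlast]
    split_ifs <;> simp
  have hacc : (cfg.stk A.k₁).head? = some yes → t.AccAt u (M + 1) := by
    intro h
    have h1 : t.run u (M + 1) = (1, S5) := by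
      unfold FTable.run at hrunT ⊢
      rw [iterate_succ_apply', hrunT, hfin, if_pos (hyes.2 h)]
    unfold FTable.AccAt
    rw [h1]
  refine ⟨⟨?_, fun h => ⟨_, hacc h⟩⟩, fun h => ⟨M + 1, hMle, hacc h⟩⟩
  rintro ⟨m, hm⟩
  by_contra hno
  have hfix : t.step (o3, S5) = (o3, S5) := by
    rw [hfin, if_neg (fun h => hno (hyes.1 h))]
  rcases le_total m M with hmM | hmM
  · obtain ⟨d, hd⟩ := Nat.exists_eq_add_of_le hmM
    have h1 : t.run u M = (1, (t.run u m).2) := by
      unfold FTable.AccAt FTable.run at hm
      have h2 : t.run u m = (1, (t.run u m).2) := by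
        unfold FTable.run
        exact Prod.ext hm rfl
      have h3 : t.run u M = t.step^[d] (t.run u m) := by
        unfold FTable.run
        rw [hd, Nat.add_comm, iterate_add_apply]
      rw [h3, h2, hone]
    rw [hrunT] at h1
    exact ho31 (congrArg Prod.fst h1)
  · obtain ⟨d, hd⟩ := Nat.exists_eq_add_of_le hmM
    have h3 : t.run u m = t.step^[d] (t.run u M) := by
      unfold FTable.run
      rw [hd, Nat.add_comm, iterate_add_apply]
    rw [hrunT, iterate_fixed hfix] at h3
    unfold FTable.AccAt at hm
    rw [h3] at hm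
    exact ho31 hm

end Vale.Agent.P310
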