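import Vale.Agent.P310.H781.Block
import Vale.Agent.Lib.PolyTime.TM2

/-!
# P310: compilation of oracle-free programs into flat machines (package W7b)

`pcode p o e` is the block of rows, to be placed at offset `o`, which runs the program `p` and
jumps to the state `e`. It takes exactly as many steps as the program.
-/

namespace Vale.Agent.P310

open Vale.Agent.Lib.PolyTime Function

/-- number of rows of the compiled program -/
def psize : Prog → ℕ
  | .skip => 1
  | .push _ _ => 1
  | .pop _ => 1
  | .query _ _ => 1
  | .seq p q => psize p + psize q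
  | .ite _ p q r => psize p + psize q + psize r + 1
  | .loop _ p => psize p + 1

/-- the symbol code of a bit -/
def bcode (b : Bool) : ℕ := if b then 1 else 0

/-- the compiled program: block at offset `o`, exit state `e` -/
def pcode : Prog → ℕ → ℕ → FTable
  | .skip, _, e => [(0, List.replicate 3 (0, 0, 0, e))]
  | .push i b, _, e => [(0, List.replicate 3 (1, i, bcode b, e))]
  | .pop i, _, e => [(0, List.replicate 3 (2, i, 0, e))]
  | .query _ j, _, e => [(0, List.replicate 3 (1, j, 0, e))]
  | .seq p q, o, e => pcode p o (o + psize p) ++ pcode q (o + psize p) e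
  | .ite i p q r, o, e => (i, [(0, 0, 0, o + 1), (0, 0, 0, o + 1 + psize p),
      (0, 0, 0, o + 1 + psize p + psize q)]) ::
      (pcode p (o + 1) e ++ (pcode q (o + 1 + psize p) e ++
        pcode r (o + 1 + psize p + psize q) e))
  | .loop i p, o, e => (i, [(0, 0, 0, e), (0, 0, 0, o + 1), (0, 0, 0, o + 1)]) ::
      pcode p (o + 1) o

theorem length_pcode (p : Prog) : ∀ o e, (pcode p o e).length = psize p := by
  induction p with
  | skip => intro o e; rfl
  | push i b => intro o e; rfl
  | pop i => intro o e; rfl
  | query i j => intro o e; rfl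
  | seq p q ihp ihq => intro o e; simp [pcode, psize, ihp, ihq]
  | ite i p q r ihp ihq ihr => intro o e; simp [pcode, psize, ihp, ihq, ihr]; omega
  | loop i p ih => intro o e; simp [pcode, psize, ih]

/-- the memory `s` on the stacks `< N`, the stacks `S` beyond -/
def emb (N : ℕ) (s : ℕ → Word) (S : ℕ → List ℕ) : ℕ → List ℕ :=
  fun i => if i < N then (s i).map bcode else S i

theorem emb_lt {N i : ℕ} (h : i < N) (s : ℕ → Word) (S : ℕ → List ℕ) :
    emb N s S i = (s i).map bcode := by simp [emb, h]

theorem emb_ge {N i : ℕ} (h : N ≤ i) (s : ℕ → Word) (S : ℕ → List ℕ) :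
    emb N s S i = S i := by simp [emb, Nat.not_lt.2 h]

theorem update_emb {N i : ℕ} (h : i < N) (s : ℕ → Word) (S : ℕ → List ℕ) (w : Word) :
    update (emb N s S) i (w.map bcode) = emb N (update s i w) S := by
  funext j
  rcases eq_or_ne j i with rfl | hj
  · simp [emb, h]
  · simp [emb, hj]

theorem rcode_map_bcode_lt (w : Word) : rcode (w.map bcode) < 3 := by
  rcases w with _ | ⟨b, w⟩
  · simp [rcode]
  · cases b <;> simp [rcode, bcode]

theorem getD_replicate_three (a d : FAct) {g : ℕ} (h : g < 3) :
    (List.replicate 3 a).getD g d = a := by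
  rw [List.getD_eq_getElem _ _ (by simpa using h), List.getElem_replicate]

/-- Simulation of programs by the compiled blocks. -/
theorem pcode_sim {p : Prog} {s s' : ℕ → Word} {τ : ℕ} (h : Eval ∅ p s τ s') {N : ℕ}
    (hN : 0 < N) (hb : ToTM2.bounded N p) (t : FTable) (S : ℕ → List ℕ) :
    ∀ o e, t.Has o (pcode p o e) →
      t.step^[τ] (o, emb N s S) = (e, emb N s' S) := by
  have row : ∀ (s : ℕ → Word) (o : ℕ) (a : FAct) (b : FTable),
      t.Has o ((0, List.replicate 3 a) :: b) →
      t.step^[1] (o, emb N s S) = (a.2.2.2, a.upd (emb N s S)) := by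
    intro s o a b hh
    have hlt : rcode (emb N s S 0) < 3 := by
      rw [emb_lt hN]; exact rcode_map_bcode_lt _
    rw [iterate_one, t.step_row hh.head]
    simp only [getD_replicate_three _ _ hlt]
  induction h with
  | skip s => intro o e hh; rw [row s o _ _ hh]; simp
  | push s i b =>
    intro o e hh
    rw [row s o _ _ hh, FAct.upd_push, emb_lt hb]
    congr 1
    rw [← update_emb hb]
    simp
  | pop s i =>
    intro o e hh
    rw [row s o _ _ hh, FAct.upd_pop, emb_lt hb]
    congr 1
    rw [← update_emb hb]
    simp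
  | query_yes s i j hi => exact absurd hi (by simp)
  | query_no s i j hi =>
    intro o e hh
    rw [row s o _ _ hh, FAct.upd_push, emb_lt hb.2]
    congr 1
    rw [← update_emb hb.2]
    simp [bcode]
  | @seq p q s s' s'' τ τ' _ _ ih₁ ih₂ =>
    intro o e hh
    have h1 := ih₁ hb.1 o _ hh.left
    have h2 := ih₂ hb.2 _ e (hh.right' (length_pcode p _ _))
    exact FTable.steps_trans h1 h2
  | @ite_nil p q r s s' τ i hi _ ih =>
    intro o e hh
    have h0 : t.step^[1] (o, emb N s S) = (o + 1, emb N s S) := by
      rw [iterate_one, t.step_row hh.head]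
      simp [emb_lt hb.1, hi, rcode]
    rw [Nat.add_comm]
    exact FTable.steps_trans h0 (ih hb.2.1 _ e hh.tail.left)
  | @ite_false p q r s s' τ i hi _ ih =>
    intro o e hh
    obtain ⟨w, hw⟩ : ∃ w, s i = false :: w := by
      rcases hs : s i with _ | ⟨b, w⟩
      · simp [hs] at hi
      · simp [hs] at hi; exact ⟨w, by rw [hi]⟩
    have h0 : t.step^[1] (o, emb N s S) = (o + 1 + psize p, emb N s S) := by
      rw [iterate_one, t.step_row hh.head]
      simp [emb_lt hb.1, hw, rcode, bcode]
    rw [Nat.add_comm]
    exact FTable.steps_trans h0 (ih hb.2.2.1 _ e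
      ((hh.tail.right' (length_pcode p _ _)).left))
  | @ite_true p q r s s' τ i hi _ ih =>
    intro o e hh
    obtain ⟨w, hw⟩ : ∃ w, s i = true :: w := by
      rcases hs : s i with _ | ⟨b, w⟩
      · simp [hs] at hi
      · simp [hs] at hi; exact ⟨w, by rw [hi]⟩
    have h0 : t.step^[1] (o, emb N s S) = (o + 1 + psize p + psize q, emb N s S) := by
      rw [iterate_one, t.step_row hh.head]
      simp [emb_lt hb.1, hw, rcode, bcode]
    rw [Nat.add_comm]
    exact FTable.steps_trans h0 (ih hb.2.2.2 _ e
      ((hh.tail.right' (length_pcode p _ _)).right' (length_pcode q _ _)))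
  | @loop_stop p s i hi =>
    intro o e hh
    rw [iterate_one, t.step_row hh.head]
    simp [emb_lt hb.1, hi, rcode]
  | @loop_step p s s' s'' τ τ' i hi _ _ ih₁ ih₂ =>
    intro o e hh
    have h0 : t.step^[1] (o, emb N s S) = (o + 1, emb N s S) := by
      rw [iterate_one, t.step_row hh.head]
      rcases hs : s i with _ | ⟨b, w⟩
      · exact absurd hs hi
      · cases b <;> simp [emb_lt hb.1, hs, rcode, bcode]
    have h1 := ih₁ hb.2 (o + 1) o hh.tail
    have h2 := ih₂ hb o e hh
    have : τ + τ' + 1 = 1 + (τ + τ') := by omega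
    rw [this]
    exact FTable.steps_trans h0 (FTable.steps_trans h1 h2)

end Vale.Agent.P310
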